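import Vale.Agent.P072.Defs
import Vale.Agent.P072.Main

namespace Vale.Agent.Results.P072.Full

open Vale.Agent.P072

theorem result (d : ℕ) (N : Network d) (hN : N.WeaklyReversible) (c : Fin d → ℝ)
    (hc : ∀ i, 0 < c i) :
    (∀ k : (Fin d → ℕ) × (Fin d → ℕ) → ℝ, (∀ r ∈ N.R, 0 < k r) →
      PermanentOn (N.field k) (N.posClass c)) ∧
    (∀ ε : ℝ, 0 < ε → N.UniformlyPermanentOn ε (N.posClass c)) :=
  ⟨fun _ hk => classical N hN hc hk, fun _ hε => uniform N hN hc hε⟩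

end Vale.Agent.Results.P072.Full
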